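import Vale.Agent.P131.Transfer

/-! The hyperinvariant subspace problem has a negative answer. -/

namespace Vale.Agent.Results.P131.A_full

theorem result (H : Type*) [NormedAddCommGroup H] [InnerProductSpace ℂ H] [CompleteSpace H]
    [TopologicalSpace.SeparableSpace H] (hH : ¬ FiniteDimensional ℂ H) :
    ∃ T : H →L[ℂ] H, (∀ c : ℂ, T ≠ c • ContinuousLinearMap.id ℂ H) ∧
      ∀ M : Submodule ℂ H, IsClosed (M : Set H) →
        (∀ A : H →L[ℂ] H, A.comp T = T.comp A → ∀ x ∈ M, A x ∈ M) → M = ⊥ ∨ M = ⊤ :=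
  Vale.Agent.P131.main H hH

end Vale.Agent.Results.P131.A_full
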